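import Mathlib

/-! Pure type systems, with de Bruijn indices. -/

namespace Vale.Agent.P340

universe u

/-- Expressions over the sorts `S`; bound variables are de Bruijn indices. -/
inductive Tm (S : Type u) : Type u
  | var : ℕ → Tm S
  | sort : S → Tm S
  | app : Tm S → Tm S → Tm S
  | lam : Tm S → Tm S → Tm S
  | pi : Tm S → Tm S → Tm S

variable {S : Type u}

/-- A renaming under one binder. -/
def upR (ξ : ℕ → ℕ) : ℕ → ℕ
  | 0 => 0
  | n + 1 => ξ n + 1

/-- Renaming of free variables. -/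
def ren : (ℕ → ℕ) → Tm S → Tm S
  | ξ, .var n => .var (ξ n)
  | _, .sort s => .sort s
  | ξ, .app M N => .app (ren ξ M) (ren ξ N)
  | ξ, .lam A M => .lam (ren ξ A) (ren (upR ξ) M)
  | ξ, .pi A B => .pi (ren ξ A) (ren (upR ξ) B)

/-- A substitution under one binder. -/
def upS (σ : ℕ → Tm S) : ℕ → Tm S
  | 0 => .var 0
  | n + 1 => ren Nat.succ (σ n)

/-- Capture-avoiding simultaneous substitution. -/
def subst : (ℕ → Tm S) → Tm S → Tm S
  | σ, .var n => σ n
  | _, .sort s => .sort s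
  | σ, .app M N => .app (subst σ M) (subst σ N)
  | σ, .lam A M => .lam (subst σ A) (subst (upS σ) M)
  | σ, .pi A B => .pi (subst σ A) (subst (upS σ) B)

/-- The substitution of `N` for the variable just bound. -/
def one (N : Tm S) : ℕ → Tm S
  | 0 => N
  | n + 1 => .var n

/-- One step of beta reduction, anywhere in the expression. -/
inductive Step : Tm S → Tm S → Prop
  | beta (A M N : Tm S) : Step (.app (.lam A M) N) (subst (one N) M)
  | appL {M M' : Tm S} (N : Tm S) : Step M M' → Step (.app M N) (.app M' N)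
  | appR (M : Tm S) {N N' : Tm S} : Step N N' → Step (.app M N) (.app M N')
  | lamL {A A' : Tm S} (M : Tm S) : Step A A' → Step (.lam A M) (.lam A' M)
  | lamR (A : Tm S) {M M' : Tm S} : Step M M' → Step (.lam A M) (.lam A M')
  | piL {A A' : Tm S} (B : Tm S) : Step A A' → Step (.pi A B) (.pi A' B)
  | piR (A : Tm S) {B B' : Tm S} : Step B B' → Step (.pi A B) (.pi A B')

/-- The typing judgment of the specification with axioms `Ax` and rules `Ru`. -/
inductive Ty (Ax : S → S → Prop) (Ru : S → S → S → Prop) : List (Tm S) → Tm S → Tm S → Prop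
  | ax {s₁ s₂ : S} : Ax s₁ s₂ → Ty Ax Ru [] (.sort s₁) (.sort s₂)
  | var {Γ : List (Tm S)} {A : Tm S} {s : S} :
      Ty Ax Ru Γ A (.sort s) → Ty Ax Ru (A :: Γ) (.var 0) (ren Nat.succ A)
  | weak {Γ : List (Tm S)} {M B A : Tm S} {s : S} : Ty Ax Ru Γ M B → Ty Ax Ru Γ A (.sort s) →
      Ty Ax Ru (A :: Γ) (ren Nat.succ M) (ren Nat.succ B)
  | prod {Γ : List (Tm S)} {A B : Tm S} {s₁ s₂ s₃ : S} : Ty Ax Ru Γ A (.sort s₁) →
      Ty Ax Ru (A :: Γ) B (.sort s₂) → Ru s₁ s₂ s₃ → Ty Ax Ru Γ (.pi A B) (.sort s₃)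
  | abs {Γ : List (Tm S)} {A M B : Tm S} {s : S} : Ty Ax Ru (A :: Γ) M B →
      Ty Ax Ru Γ (.pi A B) (.sort s) → Ty Ax Ru Γ (.lam A M) (.pi A B)
  | app {Γ : List (Tm S)} {M N A B : Tm S} : Ty Ax Ru Γ M (.pi A B) → Ty Ax Ru Γ N A →
      Ty Ax Ru Γ (.app M N) (subst (one N) B)
  | conv {Γ : List (Tm S)} {M A B : Tm S} {s : S} : Ty Ax Ru Γ M A → Ty Ax Ru Γ B (.sort s) →
      Relation.EqvGen Step A B → Ty Ax Ru Γ M B

/-- Subject or type of a derivable judgment. -/
def Legal (Ax : S → S → Prop) (Ru : S → S → S → Prop) (M : Tm S) : Prop :=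
  ∃ Γ A, Ty Ax Ru Γ M A ∨ Ty Ax Ru Γ A M

/-- Every legal expression reduces to a normal form. -/
def WN (Ax : S → S → Prop) (Ru : S → S → S → Prop) : Prop :=
  ∀ M, Legal Ax Ru M → ∃ N, Relation.ReflTransGen Step M N ∧ ∀ N', ¬ Step N N'

/-- No legal expression starts an infinite reduction sequence. -/
def SN (Ax : S → S → Prop) (Ru : S → S → S → Prop) : Prop :=
  ∀ M, Legal Ax Ru M → ¬ ∃ f : ℕ → Tm S, f 0 = M ∧ ∀ n, Step (f n) (f (n + 1))

end Vale.Agent.P340
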