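import Vale.Agent.P340.Defs

/-! Reduction to finite specifications. -/

namespace Vale.Agent.P340

universe u v
variable {S : Type u} {S' : Type v}

/-- Change of sorts. -/
def mp (f : S → S') : Tm S → Tm S'
  | .var n => .var n
  | .sort s => .sort (f s)
  | .app M N => .app (mp f M) (mp f N)
  | .lam M N => .lam (mp f M) (mp f N)
  | .pi M N => .pi (mp f M) (mp f N)

theorem mp_ren (f : S → S') (M : Tm S) : ∀ ξ, mp f (ren ξ M) = ren ξ (mp f M) := by
  induction M <;> intro ξ <;> simp_all [ren, mp]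

theorem mp_subst (f : S → S') (M : Tm S) :
    ∀ σ : ℕ → Tm S, mp f (subst σ M) = subst (mp f ∘ σ) (mp f M) := by
  have up : ∀ σ : ℕ → Tm S, mp f ∘ upS σ = upS (mp f ∘ σ) := by
    intro σ; funext n
    cases n with
    | zero => rfl
    | succ n => simp only [Function.comp, upS, mp_ren]
  induction M <;> intro σ <;> simp_all [subst, mp]

theorem mp_one (f : S → S') (N M : Tm S) :
    mp f (subst (one N) M) = subst (one (mp f N)) (mp f M) := by
  rw [mp_subst]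
  congr 1
  funext n
  cases n <;> rfl

theorem Step.map (f : S → S') {M N : Tm S} (h : Step M N) : Step (mp f M) (mp f N) := by
  induction h with
  | beta A M N => rw [mp_one]; exact Step.beta _ _ _
  | appL N _ ih => exact Step.appL _ ih
  | appR M _ ih => exact Step.appR _ ih
  | lamL M _ ih => exact Step.lamL _ ih
  | lamR A _ ih => exact Step.lamR _ ih
  | piL B _ ih => exact Step.piL _ ih
  | piR A _ ih => exact Step.piR _ ih

theorem step_back (f : S → S') (M : Tm S) :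
    ∀ N', Step (mp f M) N' → ∃ N, Step M N ∧ mp f N = N' := by
  induction M with
  | var n => intro N' h; cases h
  | sort s => intro N' h; cases h
  | lam A B h1 h2 =>
    intro N' h
    cases h with
    | lamL _ h => obtain ⟨N, h3, rfl⟩ := h1 _ h; exact ⟨_, Step.lamL _ h3, rfl⟩
    | lamR _ h => obtain ⟨N, h3, rfl⟩ := h2 _ h; exact ⟨_, Step.lamR _ h3, rfl⟩
  | pi A B h1 h2 =>
    intro N' h
    cases h with
    | piL _ h => obtain ⟨N, h3, rfl⟩ := h1 _ h; exact ⟨_, Step.piL _ h3, rfl⟩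
    | piR _ h => obtain ⟨N, h3, rfl⟩ := h2 _ h; exact ⟨_, Step.piR _ h3, rfl⟩
  | app A B h1 h2 =>
    intro N' h
    have inv : ∀ {X Y Z : Tm S'}, Step (.app X Y) Z → (∃ P Q, X = .lam P Q ∧ Z = subst (one Y) Q) ∨
        (∃ X', Step X X' ∧ Z = .app X' Y) ∨ ∃ Y', Step Y Y' ∧ Z = .app X Y' := by
      intro X Y Z h
      cases h with
      | beta P Q _ => exact Or.inl ⟨P, Q, rfl, rfl⟩
      | appL _ h => exact Or.inr (Or.inl ⟨_, h, rfl⟩)
      | appR _ h => exact Or.inr (Or.inr ⟨_, h, rfl⟩)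
    rcases inv h with ⟨P, Q, e, rfl⟩ | ⟨X', h', rfl⟩ | ⟨Y', h', rfl⟩
    · cases A with
      | lam A1 A2 =>
        simp only [mp, Tm.lam.injEq] at e
        obtain ⟨-, rfl⟩ := e
        exact ⟨_, Step.beta _ _ _, mp_one _ _ _⟩
      | var _ => simp [mp] at e
      | sort _ => simp [mp] at e
      | app _ _ => simp [mp] at e
      | pi _ _ => simp [mp] at e
    · obtain ⟨N, h3, rfl⟩ := h1 _ h'; exact ⟨_, Step.appL _ h3, rfl⟩
    · obtain ⟨N, h3, rfl⟩ := h2 _ h'; exact ⟨_, Step.appR _ h3, rfl⟩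

theorem conv_map (f : S → S') {M N : Tm S} (h : Relation.EqvGen Step M N) :
    Relation.EqvGen Step (mp f M) (mp f N) := by
  induction h with
  | rel a b h => exact Relation.EqvGen.rel _ _ (h.map f)
  | refl a => exact Relation.EqvGen.refl _
  | symm a b _ ih => exact Relation.EqvGen.symm _ _ ih
  | trans a b c _ _ h1 h2 => exact Relation.EqvGen.trans _ _ _ h1 h2

theorem Ty.fin {Ax : S → S → Prop} {Ru : S → S → S → Prop} {Γ : List (Tm S)} {M A : Tm S}
    (h : Ty Ax Ru Γ M A) : ∃ T : Set S, T.Finite ∧ T.Nonempty ∧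
      ∀ (f : S → S') (Ax' : S' → S' → Prop) (Ru' : S' → S' → S' → Prop),
        (∀ a ∈ T, ∀ b ∈ T, Ax a b → Ax' (f a) (f b)) →
        (∀ a ∈ T, ∀ b ∈ T, ∀ c ∈ T, Ru a b c → Ru' (f a) (f b) (f c)) →
        Ty Ax' Ru' (Γ.map (mp f)) (mp f M) (mp f A) := by
  induction h with
  | @ax s₁ s₂ h =>
    exact ⟨{s₁, s₂}, Set.toFinite _, ⟨s₁, by simp⟩, fun f Ax' Ru' h1 _ =>
      Ty.ax (h1 _ (by simp) _ (by simp) h)⟩
  | var _ ih =>
    obtain ⟨T, hT, hn, h⟩ := ih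
    refine ⟨T, hT, hn, fun f Ax' Ru' h1 h2 => ?_⟩
    rw [mp_ren]
    exact Ty.var (h f Ax' Ru' h1 h2)
  | weak _ _ ih ih' =>
    obtain ⟨T, hT, hn, h⟩ := ih
    obtain ⟨T', hT', -, h'⟩ := ih'
    refine ⟨T ∪ T', hT.union hT', hn.inl, fun f Ax' Ru' h1 h2 => ?_⟩
    rw [mp_ren, mp_ren]
    exact Ty.weak
      (h f Ax' Ru' (fun a ha b hb => h1 a (.inl ha) b (.inl hb))
        fun a ha b hb c hc => h2 a (.inl ha) b (.inl hb) c (.inl hc))
      (h' f Ax' Ru' (fun a ha b hb => h1 a (.inr ha) b (.inr hb))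
        fun a ha b hb c hc => h2 a (.inr ha) b (.inr hb) c (.inr hc))
  | @prod Γ A B s₁ s₂ s₃ _ _ hr ih ih' =>
    obtain ⟨T, hT, hn, h⟩ := ih
    obtain ⟨T', hT', -, h'⟩ := ih'
    refine ⟨(T ∪ T') ∪ {s₁, s₂, s₃}, (hT.union hT').union (Set.toFinite _), hn.inl.inl,
      fun f Ax' Ru' h1 h2 => ?_⟩
    exact Ty.prod
      (h f Ax' Ru' (fun a ha b hb => h1 a (.inl (.inl ha)) b (.inl (.inl hb)))
        fun a ha b hb c hc => h2 a (.inl (.inl ha)) b (.inl (.inl hb)) c (.inl (.inl hc)))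
      (h' f Ax' Ru' (fun a ha b hb => h1 a (.inl (.inr ha)) b (.inl (.inr hb)))
        fun a ha b hb c hc => h2 a (.inl (.inr ha)) b (.inl (.inr hb)) c (.inl (.inr hc)))
      (h2 _ (.inr (by simp)) _ (.inr (by simp)) _ (.inr (by simp)) hr)
  | abs _ _ ih ih' =>
    obtain ⟨T, hT, hn, h⟩ := ih
    obtain ⟨T', hT', -, h'⟩ := ih'
    refine ⟨T ∪ T', hT.union hT', hn.inl, fun f Ax' Ru' h1 h2 => ?_⟩
    exact Ty.abs
      (h f Ax' Ru' (fun a ha b hb => h1 a (.inl ha) b (.inl hb))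
        fun a ha b hb c hc => h2 a (.inl ha) b (.inl hb) c (.inl hc))
      (h' f Ax' Ru' (fun a ha b hb => h1 a (.inr ha) b (.inr hb))
        fun a ha b hb c hc => h2 a (.inr ha) b (.inr hb) c (.inr hc))
  | app _ _ ih ih' =>
    obtain ⟨T, hT, hn, h⟩ := ih
    obtain ⟨T', hT', -, h'⟩ := ih'
    refine ⟨T ∪ T', hT.union hT', hn.inl, fun f Ax' Ru' h1 h2 => ?_⟩
    rw [mp_one]
    exact Ty.app
      (h f Ax' Ru' (fun a ha b hb => h1 a (.inl ha) b (.inl hb))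
        fun a ha b hb c hc => h2 a (.inl ha) b (.inl hb) c (.inl hc))
      (h' f Ax' Ru' (fun a ha b hb => h1 a (.inr ha) b (.inr hb))
        fun a ha b hb c hc => h2 a (.inr ha) b (.inr hb) c (.inr hc))
  | conv _ _ hc ih ih' =>
    obtain ⟨T, hT, hn, h⟩ := ih
    obtain ⟨T', hT', -, h'⟩ := ih'
    refine ⟨T ∪ T', hT.union hT', hn.inl, fun f Ax' Ru' h1 h2 => ?_⟩
    exact Ty.conv
      (h f Ax' Ru' (fun a ha b hb => h1 a (.inl ha) b (.inl hb))
        fun a ha b hb c hc => h2 a (.inl ha) b (.inl hb) c (.inl hc))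
      (h' f Ax' Ru' (fun a ha b hb => h1 a (.inr ha) b (.inr hb))
        fun a ha b hb c hc => h2 a (.inr ha) b (.inr hb) c (.inr hc))
      (conv_map f hc)

theorem Legal.fin {Ax : S → S → Prop} {Ru : S → S → S → Prop} {M : Tm S}
    (h : Legal Ax Ru M) : ∃ T : Set S, T.Finite ∧ T.Nonempty ∧
      ∀ (f : S → S') (Ax' : S' → S' → Prop) (Ru' : S' → S' → S' → Prop),
        (∀ a ∈ T, ∀ b ∈ T, Ax a b → Ax' (f a) (f b)) →
        (∀ a ∈ T, ∀ b ∈ T, ∀ c ∈ T, Ru a b c → Ru' (f a) (f b) (f c)) →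
        Legal Ax' Ru' (mp f M) := by
  obtain ⟨Γ, A, h | h⟩ := h
  · obtain ⟨T, h1, h2, h3⟩ := h.fin (S' := S')
    exact ⟨T, h1, h2, fun f Ax' Ru' a b => ⟨_, _, Or.inl (h3 f Ax' Ru' a b)⟩⟩
  · obtain ⟨T, h1, h2, h3⟩ := h.fin (S' := S')
    exact ⟨T, h1, h2, fun f Ax' Ru' a b => ⟨_, _, Or.inr (h3 f Ax' Ru' a b)⟩⟩

theorem WN.back {Ax : S → S → Prop} {Ru : S → S → S → Prop} (g : S' → S) (h : WN Ax Ru)
    {Ax' : S' → S' → Prop} {Ru' : S' → S' → S' → Prop}
    (h1 : ∀ a b, Ax' a b → Ax (g a) (g b)) (h2 : ∀ a b c, Ru' a b c → Ru (g a) (g b) (g c)) :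
    WN Ax' Ru' := by
  intro M hM
  obtain ⟨T, -, -, h3⟩ := hM.fin (S' := S)
  obtain ⟨N', hr, hn⟩ := h _ (h3 g Ax Ru (fun a _ b _ => h1 a b) fun a _ b _ c _ => h2 a b c)
  have : ∃ N, Relation.ReflTransGen Step M N ∧ mp g N = N' := by
    clear hn
    induction hr with
    | refl => exact ⟨M, Relation.ReflTransGen.refl, rfl⟩
    | tail _ hs ih =>
      obtain ⟨N, h4, rfl⟩ := ih
      obtain ⟨N2, h5, rfl⟩ := step_back g N _ hs
      exact ⟨N2, h4.tail h5, rfl⟩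
  obtain ⟨N, h4, rfl⟩ := this
  exact ⟨N, h4, fun N2 hs => hn _ (hs.map g)⟩

theorem finite_red
    (H : ∀ (n : ℕ) (Ax : Fin n → Fin n → Prop) (Ru : Fin n → Fin n → Fin n → Prop),
      WN Ax Ru → SN Ax Ru) (Ax : S → S → Prop) (Ru : S → S → S → Prop) (h : WN Ax Ru) :
    SN Ax Ru := by
  classical
  rintro M hM ⟨F, hF0, hF⟩
  have key : ∃ (n : ℕ) (f : S → Fin n) (g : Fin n → S),
      Legal (fun a b => Ax (g a) (g b)) (fun a b c => Ru (g a) (g b) (g c)) (mp f M) := by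
    obtain ⟨T, hT, ⟨s0, hs0⟩, h3⟩ := hM.fin (S' := ℕ)
    obtain ⟨n, ⟨e⟩⟩ := Finite.exists_equiv_fin T (h := hT)
    let f : S → Fin n := fun s => if h : s ∈ T then e ⟨s, h⟩ else e ⟨s0, hs0⟩
    let g : Fin n → S := fun i => (e.symm i).1
    have hgf : ∀ s ∈ T, g (f s) = s := by
      intro s hs
      simp [f, g, hs]
    let g' : ℕ → S := fun i => if h : i < n then g ⟨i, h⟩ else s0
    have hg' : ∀ i : Fin n, g' i = g i := fun i => by simp [g']
    have h4 := h3 (fun s => (f s : ℕ)) (fun a b => a < n ∧ b < n ∧ Ax (g' a) (g' b))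
      (fun a b c => a < n ∧ b < n ∧ c < n ∧ Ru (g' a) (g' b) (g' c))
      (fun a ha b hb hab => ⟨(f a).2, (f b).2, by rwa [hg', hg', hgf a ha, hgf b hb]⟩)
      (fun a ha b hb c hc hab => ⟨(f a).2, (f b).2, (f c).2, by
        rwa [hg', hg', hg', hgf a ha, hgf b hb, hgf c hc]⟩)
    obtain ⟨T2, -, -, h5⟩ := h4.fin (S' := Fin n)
    let r : ℕ → Fin n := fun i => if h : i < n then ⟨i, h⟩ else f s0
    have hr : ∀ i (h : i < n), g (r i) = g' i := fun i h => by simp [r, g', h]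
    have h6 := h5 r (fun a b => Ax (g a) (g b)) (fun a b c => Ru (g a) (g b) (g c))
      (fun a _ b _ hab => by rw [hr a hab.1, hr b hab.2.1]; exact hab.2.2)
      (fun a _ b _ c _ hab => by
        rw [hr a hab.1, hr b hab.2.1, hr c hab.2.2.1]; exact hab.2.2.2)
    have e2 : ∀ X : Tm S, mp r (mp (fun s => (f s : ℕ)) X) = mp f X := by
      intro X
      induction X with
      | var _ => rfl
      | sort s =>
        show Tm.sort (r (f s)) = Tm.sort (f s)
        rw [show r (f s) = f s from dif_pos (f s).2]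
      | app _ _ h1 h2 => simp only [mp, h1, h2]
      | lam _ _ h1 h2 => simp only [mp, h1, h2]
      | pi _ _ h1 h2 => simp only [mp, h1, h2]
    rw [e2] at h6
    exact ⟨n, f, g, h6⟩
  obtain ⟨n, f, g, hl⟩ := key
  exact H n _ _ (h.back g (fun _ _ x => x) fun _ _ _ x => x) _ hl
    ⟨fun k => mp f (F k), congrArg (mp f) hF0, fun k => (hF k).map f⟩

end Vale.Agent.P340
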