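import Vale.Agent.P340.Red

/-! Strong normalisation without quantification over types. -/

namespace Vale.Agent.P340

universe u
variable {S : Type u} {Ax : S → S → Prop} {Ru : S → S → S → Prop} {D : Set S}

theorem Ty.inv (hA : ∀ s t, Ax s t → t ∉ D)
    (hR : ∀ s₁ s₂ s₃, Ru s₁ s₂ s₃ → s₁ ∈ D ∧ (s₃ ∈ D → s₂ ∈ D)) {Γ : List (Tm S)} {M A : Tm S}
    (h : Ty Ax Ru Γ M A) : Good M ∧ Good A ∧ (en (shape A) = none → shape M = .v) ∧
      ∀ s ∈ D, en (shape A) = some s → en (shape M) = none := by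
  induction h with
  | ax h =>
    refine ⟨trivial, trivial, fun e => (by cases e), fun s hs e => ?_⟩
    cases e
    exact absurd hs (hA _ _ h)
  | var _ ih => exact ⟨trivial, good_ren _ _ ih.1, fun _ => rfl, fun _ _ _ => rfl⟩
  | weak _ _ ih _ =>
    rw [shape_ren, shape_ren]
    exact ⟨good_ren _ _ ih.1, good_ren _ _ ih.2.1, ih.2.2⟩
  | prod _ _ hr ih ih' =>
    refine ⟨⟨ih.1, ih'.1, ih.2.2.2 _ (hR _ _ _ hr).1 rfl⟩, trivial, fun e => (by cases e),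
      fun s hs e => ?_⟩
    cases e
    exact ih'.2.2.2 _ ((hR _ _ _ hr).2 hs) rfl
  | abs _ _ ih ih' => exact ⟨⟨ih'.1.1, ih.1⟩, ih'.1, ih.2.2⟩
  | app _ _ ih ih' =>
    have hv := ih'.2.2.1 ih.2.1.2.2
    rw [shape_subst _ _ (one_v hv)]
    exact ⟨⟨ih.1, ih'.1, hv⟩, good_subst _ _ (one_v hv) (one_good ih'.1) ih.2.1.2.1, ih.2.2⟩
  | conv _ _ hc ih ih' =>
    rw [← conv_shape hc ih.2.1 ih'.1]
    exact ⟨ih.1, ih'.1, ih.2.2⟩

/-- Reducible substitutions. -/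
def Ctx : List (Tm S) → (ℕ → Tm S) → Prop
  | [], _ => True
  | A :: Γ, σ => Red (shape A) (σ 0) ∧ Ctx Γ (σ ∘ Nat.succ)

/-- All instances of the codomains normalise. -/
def TR : Tm S → (ℕ → Tm S) → Prop
  | .pi A B, σ => ∀ N, Red (shape A) N → Sn (subst (cons N σ) B) ∧ TR B (cons N σ)
  | .var _, _ => True
  | .sort _, _ => True
  | .app _ _, _ => True
  | .lam _ _, _ => True

theorem tr_subst (B : Tm S) : ∀ ρ σ : ℕ → Tm S, (∀ n, shape (ρ n) = .v) →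
    TR B (subst σ ∘ ρ) → TR (subst ρ B) σ := by
  induction B with
  | var n =>
    intro ρ σ h _
    have := h n
    simp only [subst]
    cases e : ρ n with
    | pi _ _ => rw [e] at this; cases this
    | _ => trivial
  | sort _ => exact fun _ _ _ _ => trivial
  | app _ _ => exact fun _ _ _ _ => trivial
  | lam _ _ => exact fun _ _ _ _ => trivial
  | pi A C _ ih =>
    intro ρ σ h hT N hN
    rw [shape_subst A ρ h] at hN
    refine ⟨?_, ih _ _ (shape_up h) ?_⟩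
    · rw [subst_subst, cons_up]; exact (hT N hN).1
    · rw [cons_up]; exact (hT N hN).2

theorem tr_ren (B : Tm S) (σ : ℕ → Tm S) (h : TR B (σ ∘ Nat.succ)) : TR (ren Nat.succ B) σ := by
  rw [ren_eq]
  exact tr_subst _ _ _ (fun _ => rfl) h

theorem Ty.fund (hA : ∀ s t, Ax s t → t ∉ D)
    (hR : ∀ s₁ s₂ s₃, Ru s₁ s₂ s₃ → s₁ ∈ D ∧ (s₃ ∈ D → s₂ ∈ D)) {Γ : List (Tm S)} {M A : Tm S}
    (h : Ty Ax Ru Γ M A) : ∀ σ, Ctx Γ σ →
      Red (shape A) (subst σ M) ∧ TR M σ ∧ Sn (subst σ A) ∧ TR A σ := by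
  induction h with
  | ax h => exact fun σ _ => ⟨sn_sort _, trivial, sn_sort _, trivial⟩
  | var _ ih =>
    intro σ hσ
    rw [shape_ren, subst_ren]
    exact ⟨hσ.1, trivial, (ih _ hσ.2).1, tr_ren _ _ (ih _ hσ.2).2.1⟩
  | weak _ _ ih _ =>
    intro σ hσ
    rw [shape_ren, subst_ren, subst_ren]
    exact ⟨(ih _ hσ.2).1, tr_ren _ _ (ih _ hσ.2).2.1, (ih _ hσ.2).2.2.1,
      tr_ren _ _ (ih _ hσ.2).2.2.2⟩
  | @prod Γ A B _ _ _ _ _ _ ih ih' =>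
    intro σ hσ
    refine ⟨sn_pi (ih σ hσ).1 ?_, fun N hN => ?_, sn_sort _, trivial⟩
    · refine Sn.back (subst (one (.var 0))) (fun _ _ hs => hs.sub _) ?_
      rw [one_up]
      exact (ih' (cons (.var 0) σ) ⟨red_var _ _, hσ⟩).1
    · exact ⟨(ih' (cons N σ) ⟨hN, hσ⟩).1, (ih' (cons N σ) ⟨hN, hσ⟩).2.1⟩
  | @abs Γ A M B _ _ _ ih ih' =>
    intro σ hσ
    refine ⟨red_lam ?_ fun N hN => ?_, trivial, (ih' σ hσ).1, (ih' σ hσ).2.1⟩
    · exact Sn.back (fun X => .pi X (subst (upS σ) B)) (fun _ _ hs => Step.piL _ hs) (ih' σ hσ).1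
    · rw [one_up]
      exact (ih (cons N σ) ⟨hN, hσ⟩).1
  | @app Γ M N A B h1 h2 ih ih' =>
    intro σ hσ
    have hv := (h2.inv hA hR).2.2.1 (h1.inv hA hR).2.1.2.2
    have hT := (ih σ hσ).2.2.2 _ (ih' σ hσ).1
    rw [shape_subst _ _ (one_v hv), subst_one]
    refine ⟨(ih σ hσ).1 _ (ih' σ hσ).1, trivial, hT.1, tr_subst _ _ _ (one_v hv) ?_⟩
    have e : subst σ ∘ one N = cons (subst σ N) σ := by
      funext n; cases n <;> rfl
    rw [e]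
    exact hT.2
  | conv h1 h2 hc ih ih' =>
    intro σ hσ
    rw [← conv_shape hc (h1.inv hA hR).2.1 (h2.inv hA hR).1]
    exact ⟨(ih σ hσ).1, (ih σ hσ).2.1, (ih' σ hσ).1, (ih' σ hσ).2.1⟩

theorem ctx_var (Γ : List (Tm S)) : ∀ ξ : ℕ → ℕ, Ctx Γ (Tm.var ∘ ξ) := by
  induction Γ with
  | nil => exact fun _ => trivial
  | cons A Γ ih => exact fun ξ => ⟨red_var _ _, ih (ξ ∘ Nat.succ)⟩

theorem sn_of (hA : ∀ s t, Ax s t → t ∉ D)
    (hR : ∀ s₁ s₂ s₃, Ru s₁ s₂ s₃ → s₁ ∈ D ∧ (s₃ ∈ D → s₂ ∈ D)) : SN Ax Ru := by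
  rintro M ⟨Γ, A, h⟩ ⟨f, hf0, hf⟩
  have hM : Sn M := by
    rcases h with h | h
    · have := (h.fund hA hR Tm.var (ctx_var Γ id)).1
      rw [subst_var] at this
      exact (cr _).1 _ this
    · have := (h.fund hA hR Tm.var (ctx_var Γ id)).2.2.1
      rwa [subst_var] at this
  exact (acc_iff_isEmpty_descending_chain.1 hM).false ⟨f, hf0, hf⟩

end Vale.Agent.P340
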