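import Vale.Agent.P340.Sub

/-! Shapes, good terms and reducibility. -/

namespace Vale.Agent.P340

universe u
variable {S : Type u}

/-- Simple types. -/
inductive Sh (S : Type u) : Type u
  | v : Sh S
  | s : S → Sh S
  | arr : Sh S → Sh S → Sh S

/-- The shape of an expression. -/
def shape : Tm S → Sh S
  | .var _ => .v
  | .sort s => .s s
  | .app M _ => shape M
  | .lam _ M => shape M
  | .pi A B => .arr (shape A) (shape B)

/-- The final sort of a shape. -/
def en : Sh S → Option S
  | .v => none
  | .s s => some s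
  | .arr _ b => en b

/-- All arguments are objects, all domains are object types. -/
def Good : Tm S → Prop
  | .var _ => True
  | .sort _ => True
  | .app M N => Good M ∧ Good N ∧ shape N = .v
  | .lam A M => Good A ∧ Good M
  | .pi A B => Good A ∧ Good B ∧ en (shape A) = none

theorem shape_ren (M : Tm S) : ∀ ξ, shape (ren ξ M) = shape M := by
  induction M <;> intro ξ <;> simp_all [ren, shape]

theorem good_ren (M : Tm S) : ∀ ξ, Good M → Good (ren ξ M) := by
  induction M <;> intro ξ <;> simp_all [ren, Good, shape_ren]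

theorem shape_up {σ : ℕ → Tm S} (h : ∀ n, shape (σ n) = .v) (n : ℕ) : shape (upS σ n) = .v := by
  cases n with
  | zero => rfl
  | succ n => rw [upS, shape_ren, h]

theorem shape_subst (M : Tm S) :
    ∀ σ : ℕ → Tm S, (∀ n, shape (σ n) = .v) → shape (subst σ M) = shape M := by
  induction M with
  | var n => exact fun σ h => h n
  | sort s => exact fun σ h => rfl
  | app M N h1 _ => exact fun σ h => h1 σ h
  | lam A M _ h2 => exact fun σ h => h2 _ (shape_up h)
  | pi A B h1 h2 => intro σ h; simp only [subst, shape, h1 σ h, h2 _ (shape_up h)]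

theorem good_subst (M : Tm S) : ∀ σ : ℕ → Tm S, (∀ n, shape (σ n) = .v) → (∀ n, Good (σ n)) →
    Good M → Good (subst σ M) := by
  have up : ∀ σ : ℕ → Tm S, (∀ n, Good (σ n)) → ∀ n, Good (upS σ n) := by
    intro σ h n
    cases n with
    | zero => trivial
    | succ n => exact good_ren _ _ (h n)
  induction M with
  | var n => exact fun σ _ h _ => h n
  | sort s => exact fun σ _ _ _ => trivial
  | app M N h1 h2 =>
    exact fun σ h h' g => ⟨h1 σ h h' g.1, h2 σ h h' g.2.1, (shape_subst N σ h).trans g.2.2⟩
  | lam A M h1 h2 => exact fun σ h h' g => ⟨h1 σ h h' g.1, h2 _ (shape_up h) (up _ h') g.2⟩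
  | pi A B h1 h2 =>
    exact fun σ h h' g => ⟨h1 σ h h' g.1, h2 _ (shape_up h) (up _ h') g.2.1,
      by rw [shape_subst A σ h]; exact g.2.2⟩

theorem one_v {N : Tm S} (h : shape N = .v) (n : ℕ) : shape (one N n) = .v := by
  cases n with
  | zero => exact h
  | succ n => rfl

theorem one_good {N : Tm S} (h : Good N) (n : ℕ) : Good (one N n) := by
  cases n with
  | zero => exact h
  | succ n => trivial

theorem Par.good {M N : Tm S} (h : Par M N) : Good M → Good N ∧ shape N = shape M := by
  induction h with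
  | var n => exact fun g => ⟨g, rfl⟩
  | sort s => exact fun g => ⟨g, rfl⟩
  | app _ _ h1 h2 =>
    exact fun g => ⟨⟨(h1 g.1).1, (h2 g.2.1).1, (h2 g.2.1).2.trans g.2.2⟩, (h1 g.1).2⟩
  | lam _ _ h1 h2 => exact fun g => ⟨⟨(h1 g.1).1, (h2 g.2).1⟩, (h2 g.2).2⟩
  | pi _ _ h1 h2 =>
    intro g
    refine ⟨⟨(h1 g.1).1, (h2 g.2.1).1, by rw [(h1 g.1).2]; exact g.2.2⟩, ?_⟩
    simp only [shape, (h1 g.1).2, (h2 g.2.1).2]
  | beta A _ _ h1 h2 =>
    intro g
    have hv := (h2 g.2.1).2.trans g.2.2
    exact ⟨good_subst _ _ (one_v hv) (one_good (h2 g.2.1).1) (h1 g.1.2).1,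
      (shape_subst _ _ (one_v hv)).trans (h1 g.1.2).2⟩

theorem conv_shape {A B : Tm S} (h : Relation.EqvGen Step A B) (hA : Good A) (hB : Good B) :
    shape A = shape B := by
  have aux : ∀ {X Y : Tm S}, Relation.ReflTransGen Par X Y → Good X →
      Good Y ∧ shape Y = shape X := by
    intro X Y h g
    induction h with
    | refl => exact ⟨g, rfl⟩
    | tail _ hp ih => exact ⟨(hp.good ih.1).1, (hp.good ih.1).2.trans ih.2⟩
  obtain ⟨C, h1, h2⟩ := conv_join h
  exact (aux h1 hA).2.symm.trans (aux h2 hB).2

/-- Strong normalisation of one term. -/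
def Sn (M : Tm S) : Prop := Acc (fun N M : Tm S => Step M N) M

theorem Sn.back {M : Tm S} (F : Tm S → Tm S) (hF : ∀ X Y, Step X Y → Step (F X) (F Y))
    (h : Sn (F M)) : Sn M := by
  have : ∀ Z, Sn Z → ∀ M, F M = Z → Sn M := by
    intro Z hZ
    induction hZ with
    | intro Z _ ih =>
      intro M e
      exact Acc.intro _ fun N hN => ih (F N) (e ▸ hF _ _ hN) N rfl
  exact this _ h M rfl

theorem sn_sort (s : S) : Sn (Tm.sort s) := Acc.intro _ fun _ h => by cases h

theorem sn_pi {A B : Tm S} (hA : Sn A) (hB : Sn B) : Sn (Tm.pi A B) := by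
  induction hA generalizing B with
  | intro A _ ihA =>
    induction hB with
    | intro B hB ihB =>
      refine Acc.intro _ fun N h => ?_
      cases h with
      | piL _ h => exact ihA _ h (Acc.intro _ hB)
      | piR _ h => exact ihB _ h

/-- Reducibility. -/
def Red : Sh S → Tm S → Prop
  | .v, M => Sn M
  | .s _, M => Sn M
  | .arr a b, M => ∀ N, Red a N → Red b (.app M N)

theorem cr (a : Sh S) : (∀ M, Red a M → Sn M) ∧ (∀ M N, Red a M → Step M N → Red a N) ∧
    ∀ M : Tm S, (∀ A B, M ≠ .lam A B) → (∀ N, Step M N → Red a N) → Red a M := by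
  induction a with
  | v => exact ⟨fun _ h => h, fun _ _ h hs => Acc.inv h hs, fun M _ h => Acc.intro _ h⟩
  | s _ => exact ⟨fun _ h => h, fun _ _ h hs => Acc.inv h hs, fun M _ h => Acc.intro _ h⟩
  | arr a b ha hb =>
    refine ⟨fun M h => ?_, fun M N h hs P hP => hb.2.1 _ _ (h P hP) (Step.appL _ hs),
      fun M hM h N hN => ?_⟩
    · have h0 : Red a (.var 0) := ha.2.2 _ (fun _ _ e => by cases e) fun _ hs => by cases hs
      exact Sn.back (fun X => .app X (.var 0)) (fun _ _ hs => Step.appL _ hs) (hb.1 _ (h _ h0))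
    · have hs := ha.1 _ hN
      induction hs with
      | intro N _ ih =>
        refine hb.2.2 _ (fun _ _ e => by cases e) fun P hP => ?_
        cases hP with
        | beta A B _ => exact absurd rfl (hM A B)
        | appL _ hP => exact h _ hP _ hN
        | appR _ hP => exact ih _ hP (ha.2.1 _ _ hN hP)

theorem red_var (a : Sh S) (n : ℕ) : Red a (.var n) :=
  (cr a).2.2 _ (fun _ _ e => by cases e) fun _ hs => by cases hs

theorem red_lam {a b : Sh S} {A M : Tm S} (hA : Sn A)
    (h : ∀ N, Red a N → Red b (subst (one N) M)) : Red (.arr a b) (.lam A M) := by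
  intro N hN
  have hM : Sn M := Sn.back (subst (one (.var 0))) (fun _ _ hs => hs.sub _)
    ((cr b).1 _ (h _ (red_var a 0)))
  have hs := (cr a).1 _ hN
  induction hA generalizing M N with
  | intro A hA ihA =>
    induction hM generalizing N with
    | intro M hM ihM =>
      induction hs with
      | intro N hs ihN =>
        refine (cr b).2.2 _ (fun _ _ e => by cases e) fun P hP => ?_
        cases hP with
        | beta _ _ _ => exact h _ hN
        | appL _ hP =>
          cases hP with
          | lamL _ hP => exact ihA _ hP h _ hN (Acc.intro _ hM) (Acc.intro _ hs)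
          | lamR _ hP =>
            exact ihM _ hP (fun N' hN' => (cr b).2.1 _ _ (h N' hN') (hP.sub _)) _ hN
              (Acc.intro _ hs)
        | appR _ hP => exact ihN _ hP ((cr a).2.1 _ _ hN hP)

end Vale.Agent.P340
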