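import Vale.Agent.P340.Defs

/-! Substitution lemmas and confluence. -/

namespace Vale.Agent.P340

universe u
variable {S : Type u}

theorem ren_ren (M : Tm S) : ∀ ξ ζ : ℕ → ℕ, ren ξ (ren ζ M) = ren (ξ ∘ ζ) M := by
  have up : ∀ ξ ζ : ℕ → ℕ, upR ξ ∘ upR ζ = upR (ξ ∘ ζ) := by
    intro ξ ζ; funext n; cases n <;> rfl
  induction M <;> intro ξ ζ <;> simp_all [ren]

theorem subst_ren (M : Tm S) : ∀ (σ : ℕ → Tm S) (ξ : ℕ → ℕ),
    subst σ (ren ξ M) = subst (σ ∘ ξ) M := by
  have up : ∀ (σ : ℕ → Tm S) (ξ : ℕ → ℕ), upS σ ∘ upR ξ = upS (σ ∘ ξ) := by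
    intro σ ξ; funext n; cases n <;> rfl
  induction M <;> intro σ ξ <;> simp_all [ren, subst]

theorem ren_subst (M : Tm S) : ∀ (ξ : ℕ → ℕ) (σ : ℕ → Tm S),
    ren ξ (subst σ M) = subst (ren ξ ∘ σ) M := by
  have up : ∀ (ξ : ℕ → ℕ) (σ : ℕ → Tm S), ren (upR ξ) ∘ upS σ = upS (ren ξ ∘ σ) := by
    intro ξ σ; funext n
    cases n with
    | zero => rfl
    | succ n =>
      simp only [Function.comp, upS, ren_ren]
      rfl
  induction M <;> intro ξ σ <;> simp_all [ren, subst]

theorem subst_subst (M : Tm S) : ∀ τ σ : ℕ → Tm S,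
    subst τ (subst σ M) = subst (subst τ ∘ σ) M := by
  have up : ∀ τ σ : ℕ → Tm S, subst (upS τ) ∘ upS σ = upS (subst τ ∘ σ) := by
    intro τ σ; funext n
    cases n with
    | zero => rfl
    | succ n =>
      simp only [Function.comp, upS, subst_ren, ren_subst]
      rfl
  induction M <;> intro τ σ <;> simp_all [subst]

theorem subst_var (M : Tm S) : subst Tm.var M = M := by
  have up : upS (Tm.var : ℕ → Tm S) = Tm.var := by
    funext n; cases n <;> rfl
  induction M <;> simp_all [subst]

theorem ren_eq (M : Tm S) (ξ : ℕ → ℕ) : ren ξ M = subst (Tm.var ∘ ξ) M := by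
  rw [← subst_ren, subst_var]

/-- Extension of a substitution. -/
def cons (N : Tm S) (σ : ℕ → Tm S) : ℕ → Tm S
  | 0 => N
  | n + 1 => σ n

theorem cons_up (N : Tm S) (τ σ : ℕ → Tm S) :
    subst (cons N τ) ∘ upS σ = cons N (subst τ ∘ σ) := by
  funext n
  cases n with
  | zero => rfl
  | succ n =>
    simp only [Function.comp, upS, subst_ren, cons]
    rfl

theorem one_up (N M : Tm S) (σ : ℕ → Tm S) :
    subst (one N) (subst (upS σ) M) = subst (cons N σ) M := by
  rw [subst_subst]
  congr 1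
  funext n
  cases n with
  | zero => rfl
  | succ n =>
    simp only [Function.comp, upS, subst_ren, cons]
    exact subst_var _

theorem subst_one (N M : Tm S) (σ : ℕ → Tm S) :
    subst σ (subst (one N) M) = subst (cons (subst σ N) σ) M := by
  rw [subst_subst]
  congr 1
  funext n
  cases n <;> rfl

theorem Step.sub {M N : Tm S} (h : Step M N) : ∀ σ, Step (subst σ M) (subst σ N) := by
  induction h with
  | beta A M N =>
    intro σ
    rw [subst_one, ← one_up]
    exact Step.beta _ _ _
  | appL N _ ih => exact fun σ => Step.appL _ (ih σ)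
  | appR M _ ih => exact fun σ => Step.appR _ (ih σ)
  | lamL M _ ih => exact fun σ => Step.lamL _ (ih σ)
  | lamR A _ ih => exact fun σ => Step.lamR _ (ih _)
  | piL B _ ih => exact fun σ => Step.piL _ (ih σ)
  | piR A _ ih => exact fun σ => Step.piR _ (ih _)

/-- Parallel reduction. -/
inductive Par : Tm S → Tm S → Prop
  | var (n : ℕ) : Par (.var n) (.var n)
  | sort (s : S) : Par (.sort s) (.sort s)
  | app {M M' N N' : Tm S} : Par M M' → Par N N' → Par (.app M N) (.app M' N')
  | lam {M M' N N' : Tm S} : Par M M' → Par N N' → Par (.lam M N) (.lam M' N')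
  | pi {M M' N N' : Tm S} : Par M M' → Par N N' → Par (.pi M N) (.pi M' N')
  | beta (A : Tm S) {M M' N N' : Tm S} : Par M M' → Par N N' →
      Par (.app (.lam A M) N) (subst (one N') M')

theorem Par.rfl' (M : Tm S) : Par M M := by
  induction M with
  | var n => exact Par.var n
  | sort s => exact Par.sort s
  | app _ _ h1 h2 => exact Par.app h1 h2
  | lam _ _ h1 h2 => exact Par.lam h1 h2
  | pi _ _ h1 h2 => exact Par.pi h1 h2

theorem Step.par {M N : Tm S} (h : Step M N) : Par M N := by
  induction h with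
  | beta A M N => exact Par.beta _ (Par.rfl' _) (Par.rfl' _)
  | appL N _ ih => exact Par.app ih (Par.rfl' _)
  | appR M _ ih => exact Par.app (Par.rfl' _) ih
  | lamL M _ ih => exact Par.lam ih (Par.rfl' _)
  | lamR A _ ih => exact Par.lam (Par.rfl' _) ih
  | piL B _ ih => exact Par.pi ih (Par.rfl' _)
  | piR A _ ih => exact Par.pi (Par.rfl' _) ih

theorem Par.rn {M N : Tm S} (h : Par M N) : ∀ ξ, Par (ren ξ M) (ren ξ N) := by
  induction h with
  | var n => exact fun ξ => Par.var _
  | sort s => exact fun ξ => Par.sort _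
  | app _ _ h1 h2 => exact fun ξ => Par.app (h1 _) (h2 _)
  | lam _ _ h1 h2 => exact fun ξ => Par.lam (h1 _) (h2 _)
  | pi _ _ h1 h2 => exact fun ξ => Par.pi (h1 _) (h2 _)
  | @beta A M M' N N' _ _ h1 h2 =>
    intro ξ
    have e : ren ξ (subst (one N') M') = subst (one (ren ξ N')) (ren (upR ξ) M') := by
      rw [ren_subst, subst_ren]
      congr 1
      funext n
      cases n <;> rfl
    rw [e]
    exact Par.beta _ (h1 _) (h2 _)

theorem Par.sub {M N : Tm S} (h : Par M N) :
    ∀ σ τ : ℕ → Tm S, (∀ n, Par (σ n) (τ n)) → Par (subst σ M) (subst τ N) := by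
  have up : ∀ σ τ : ℕ → Tm S, (∀ n, Par (σ n) (τ n)) → ∀ n, Par (upS σ n) (upS τ n) := by
    intro σ τ h n
    cases n with
    | zero => exact Par.var _
    | succ n => exact (h n).rn _
  induction h with
  | var n => exact fun σ τ h => h n
  | sort s => exact fun σ τ h => Par.sort _
  | app _ _ h1 h2 => exact fun σ τ h => Par.app (h1 _ _ h) (h2 _ _ h)
  | lam _ _ h1 h2 => exact fun σ τ h => Par.lam (h1 _ _ h) (h2 _ _ (up _ _ h))
  | pi _ _ h1 h2 => exact fun σ τ h => Par.pi (h1 _ _ h) (h2 _ _ (up _ _ h))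
  | beta A _ _ h1 h2 =>
    intro σ τ h
    rw [subst_one, ← one_up]
    exact Par.beta _ (h1 _ _ (up _ _ h)) (h2 _ _ h)

/-- Complete development. -/
def cd : Tm S → Tm S
  | .var n => .var n
  | .sort s => .sort s
  | .app (.lam _ M) N => subst (one (cd N)) (cd M)
  | .app (.var n) N => .app (.var n) (cd N)
  | .app (.sort s) N => .app (.sort s) (cd N)
  | .app (.app M M') N => .app (cd (.app M M')) (cd N)
  | .app (.pi M M') N => .app (cd (.pi M M')) (cd N)
  | .lam A M => .lam (cd A) (cd M)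
  | .pi A M => .pi (cd A) (cd M)

theorem Par.tri {M N : Tm S} (h : Par M N) : Par N (cd M) := by
  induction h with
  | var n => exact Par.var _
  | sort s => exact Par.sort _
  | @app M M' N N' h0 _ h1 h2 =>
    cases M with
    | lam A B =>
      cases h0 with
      | lam _ _ =>
        simp only [cd] at h1 ⊢
        cases h1 with
        | lam _ h3 => exact Par.beta _ h3 h2
    | var n => simp only [cd] at h1 ⊢; exact Par.app h1 h2
    | sort n => simp only [cd] at h1 ⊢; exact Par.app h1 h2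
    | app _ _ => rw [cd]; exact Par.app h1 h2
    | pi _ _ => rw [cd]; exact Par.app h1 h2
  | lam _ _ h1 h2 => rw [cd]; exact Par.lam h1 h2
  | pi _ _ h1 h2 => rw [cd]; exact Par.pi h1 h2
  | beta A _ _ h1 h2 =>
    rw [cd]
    refine h1.sub _ _ fun n => ?_
    cases n with
    | zero => exact h2
    | succ n => exact Par.var _

theorem conv_join {A B : Tm S} (h : Relation.EqvGen Step A B) :
    Relation.Join (Relation.ReflTransGen Par) A B := by
  have cr : ∀ {a b c : Tm S}, Relation.ReflTransGen Par a b → Relation.ReflTransGen Par a c →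
      Relation.Join (Relation.ReflTransGen Par) b c := fun hab hac =>
    Relation.church_rosser (fun a _ _ h1 h2 =>
      ⟨cd a, Relation.ReflGen.single h1.tri, Relation.ReflTransGen.single h2.tri⟩) hab hac
  induction h with
  | rel a b h => exact ⟨b, Relation.ReflTransGen.single h.par, Relation.ReflTransGen.refl⟩
  | refl a => exact ⟨a, Relation.ReflTransGen.refl, Relation.ReflTransGen.refl⟩
  | symm a b _ ih => obtain ⟨c, h1, h2⟩ := ih; exact ⟨c, h2, h1⟩
  | trans a b c _ _ ih1 ih2 =>
    obtain ⟨d, h1, h2⟩ := ih1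
    obtain ⟨e, h3, h4⟩ := ih2
    obtain ⟨f, h5, h6⟩ := cr h2 h3
    exact ⟨f, h1.trans h5, h4.trans h6⟩

end Vale.Agent.P340
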